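import Vale.Agent.P063.Width

/-!
# P063 : the threshold width of graph properties
-/

namespace Vale.Agent.Results.P063.GraphWidth

/-- the edges of the complete graph on `[n]` -/
abbrev Pair (n : ℕ) := {e : Finset (Fin n) // e.card = 2}

/-- a graph on the vertex set `[n]` -/
abbrev Graph (n : ℕ) := Pair n → Bool

/-- the image of an edge under a permutation of the vertices -/
def movePair {n : ℕ} (τ : Equiv.Perm (Fin n)) (e : Pair n) : Pair n :=
  ⟨e.1.map τ.toEmbedding, by rw [Finset.card_map]; exact e.2⟩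

/-- a family of graphs which is invariant under all the permutations of the vertices -/
def IsGraphProperty {n : ℕ} (P : Set (Graph n)) : Prop :=
  ∀ (τ : Equiv.Perm (Fin n)) (x : Graph n), (fun e => x (movePair τ e)) ∈ P ↔ x ∈ P

/-- adding edges preserves membership -/
def IsIncreasing {n : ℕ} (P : Set (Graph n)) : Prop :=
  ∀ x y : Graph n, (∀ e, x e = true → y e = true) → x ∈ P → y ∈ P

open Classical in
/-- `μ_p(P)`: the probability that the random graph `G(n, p)` lies in `P` -/
noncomputable def mu {n : ℕ} (P : Set (Graph n)) (p : ℝ) : ℝ :=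
  ∑ x : Graph n, if x ∈ P then ∏ e : Pair n, (if x e = true then p else 1 - p) else 0

/-- `p_a(P) = inf {p ∈ [0, 1] : μ_p(P) ≥ a}` -/
noncomputable def pAt {n : ℕ} (P : Set (Graph n)) (a : ℝ) : ℝ :=
  sInf {p : ℝ | 0 ≤ p ∧ p ≤ 1 ∧ a ≤ mu P p}

/-- the threshold width `w_ε(P) = p_{1 - ε}(P) - p_ε(P)` -/
noncomputable def width {n : ℕ} (P : Set (Graph n)) (ε : ℝ) : ℝ :=
  pAt P (1 - ε) - pAt P ε

/-- The Friedgut–Kalai conjecture: for every `0 < ε < 1/2`, every nontrivial increasing graph
property on `n` vertices has threshold width at most `C_ε / (log n)^2`. -/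
theorem result (ε : ℝ) (hε : 0 < ε) (hε' : ε < 1 / 2) :
    ∃ C : ℝ, ∀ n : ℕ, 2 ≤ n → ∀ P : Set (Graph n), IsGraphProperty P → IsIncreasing P →
      P.Nonempty → P ≠ Set.univ → width P ε ≤ C / Real.log n ^ 2 := by
  classical
  obtain ⟨C, hC⟩ := _root_.P063.width_bound 2 le_rfl hε hε'
  refine ⟨C, fun n hn P hP hI hne _ => ?_⟩
  have hval : ∀ x : Graph n, (if x ∈ P then (1 : ℝ) else 0) = 0 ∨
      (if x ∈ P then (1 : ℝ) else 0) = 1 := fun x => by
    by_cases h : x ∈ P
    · right
      rw [if_pos h]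
    · left
      rw [if_neg h]
  have hmu : ∀ p : ℝ, mu P p = _root_.P063.Ex p fun x : Graph n =>
      if x ∈ P then (1 : ℝ) else 0 := fun p => by
    unfold mu _root_.P063.Ex _root_.P063.wt
    refine Finset.sum_congr rfl fun x _ => ?_
    by_cases h : x ∈ P
    · simp only [if_pos h, mul_one]
    · simp only [if_neg h, mul_zero]
  have h := hC n hn (fun x => if x ∈ P then (1 : ℝ) else 0) hval ?_ ?_ ?_
  · unfold width pAt
    simp_rw [hmu]
    refine h.trans (le_of_eq ?_)
    have hL : 0 < Real.log n := Real.log_pos (by exact_mod_cast (by omega : 1 < n))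
    have e1 : (-((2 : ℕ) : ℝ) / (((2 : ℕ) : ℝ) - 1)) = -(2 : ℝ) := by norm_num
    have e2 : Real.log (n : ℝ) ^ (2 : ℝ) = Real.log n ^ 2 := by
      rw [← Real.rpow_natCast]
      norm_num
    rw [e1, Real.rpow_neg hL.le, e2, div_eq_mul_inv]
  · intro τ x
    have h2 : (x ∘ _root_.P063.act τ) ∈ P ↔ x ∈ P := hP τ x
    exact if_congr h2 rfl rfl
  · intro x y hxy
    by_cases hx : x ∈ P
    · have hy : y ∈ P := hI x y (fun e he => by
        have h3 := hxy e
        rw [he] at h3
        exact _root_.P063.eq_true_of_le _ h3) hx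
      simp only [if_pos hx, if_pos hy, le_refl]
    · simp only [if_neg hx]
      split_ifs <;> norm_num
  · obtain ⟨x, hx⟩ := hne
    have : (fun _ => true : Graph n) ∈ P := hI x _ (fun _ _ => rfl) hx
    exact if_pos this

end Vale.Agent.Results.P063.GraphWidth
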