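import Vale.Agent.P063.Width

/-!
# P063 : the threshold width of graph and hypergraph properties
-/

namespace Vale.Agent.Results.P063.ThresholdWidth

/-- the set `E_{n,r}` of the `r`-element subsets of the vertex set `[n]` -/
abbrev Edge (n r : ℕ) := {e : Finset (Fin n) // e.card = r}

/-- an `r`-uniform hypergraph on `[n]`, that is, a point of `{0, 1}^{E_{n,r}}` -/
abbrev Hypergraph (n r : ℕ) := Edge n r → Bool

/-- the image of an edge under a permutation of the vertices -/
def moveEdge {n r : ℕ} (τ : Equiv.Perm (Fin n)) (e : Edge n r) : Edge n r :=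
  ⟨e.1.map τ.toEmbedding, by rw [Finset.card_map]; exact e.2⟩

/-- a family of hypergraphs which is invariant under all the permutations of the vertices -/
def IsProperty {n r : ℕ} (P : Set (Hypergraph n r)) : Prop :=
  ∀ (τ : Equiv.Perm (Fin n)) (x : Hypergraph n r), (fun e => x (moveEdge τ e)) ∈ P ↔ x ∈ P

/-- adding edges preserves membership -/
def IsIncreasing {n r : ℕ} (P : Set (Hypergraph n r)) : Prop :=
  ∀ x y : Hypergraph n r, (∀ e, x e = true → y e = true) → x ∈ P → y ∈ P

open Classical in
/-- `μ_p(P)`: the probability that the random hypergraph, with each edge present independently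
with probability `p`, lies in `P` -/
noncomputable def mu {n r : ℕ} (P : Set (Hypergraph n r)) (p : ℝ) : ℝ :=
  ∑ x : Hypergraph n r, if x ∈ P then ∏ e : Edge n r, (if x e = true then p else 1 - p) else 0

/-- `p_a(P) = inf {p ∈ [0, 1] : μ_p(P) ≥ a}` -/
noncomputable def pAt {n r : ℕ} (P : Set (Hypergraph n r)) (a : ℝ) : ℝ :=
  sInf {p : ℝ | 0 ≤ p ∧ p ≤ 1 ∧ a ≤ mu P p}

/-- the threshold width `w_ε(P) = p_{1 - ε}(P) - p_ε(P)` -/
noncomputable def width {n r : ℕ} (P : Set (Hypergraph n r)) (ε : ℝ) : ℝ :=
  pAt P (1 - ε) - pAt P ε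

/-- For every `r ≥ 2` and every `0 < ε < 1/2` there is a constant `C` such that every nontrivial
increasing `r`-uniform hypergraph property on `n ≥ r` vertices has threshold width at most
`C (log n)^{-r/(r-1)}`; for graph properties (`r = 2`) this is `C (log n)^{-2}`. -/
theorem result (r : ℕ) (hr : 2 ≤ r) (ε : ℝ) (hε : 0 < ε) (hε' : ε < 1 / 2) :
    ∃ C : ℝ, ∀ n : ℕ, r ≤ n → ∀ P : Set (Hypergraph n r), IsProperty P → IsIncreasing P →
      P.Nonempty → P ≠ Set.univ → width P ε ≤ C * Real.log n ^ (-(r : ℝ) / (r - 1)) := by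
  classical
  obtain ⟨C, hC⟩ := _root_.P063.width_bound r hr hε hε'
  refine ⟨C, fun n hn P hP hI hne _ => ?_⟩
  have hval : ∀ x : Hypergraph n r, (if x ∈ P then (1 : ℝ) else 0) = 0 ∨
      (if x ∈ P then (1 : ℝ) else 0) = 1 := fun x => by
    by_cases h : x ∈ P
    · right
      rw [if_pos h]
    · left
      rw [if_neg h]
  have hmu : ∀ p : ℝ, mu P p = _root_.P063.Ex p fun x : Hypergraph n r =>
      if x ∈ P then (1 : ℝ) else 0 := fun p => by
    unfold mu _root_.P063.Ex _root_.P063.wt
    refine Finset.sum_congr rfl fun x _ => ?_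
    by_cases h : x ∈ P
    · simp only [if_pos h, mul_one]
    · simp only [if_neg h, mul_zero]
  have h := hC n hn (fun x => if x ∈ P then (1 : ℝ) else 0) hval ?_ ?_ ?_
  · unfold width pAt
    simp_rw [hmu]
    exact h
  · intro τ x
    have h2 : (x ∘ _root_.P063.act τ) ∈ P ↔ x ∈ P := hP τ x
    exact if_congr h2 rfl rfl
  · intro x y hxy
    by_cases hx : x ∈ P
    · have hy : y ∈ P := hI x y (fun e he => by
        have h3 := hxy e
        rw [he] at h3
        exact _root_.P063.eq_true_of_le _ h3) hx
      simp only [if_pos hx, if_pos hy, le_refl]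
    · simp only [if_neg hx]
      split_ifs <;> norm_num
  · obtain ⟨x, hx⟩ := hne
    have : (fun _ => true : Hypergraph n r) ∈ P := hI x _ (fun _ _ => rfl) hx
    exact if_pos this

end Vale.Agent.Results.P063.ThresholdWidth
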